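import Vale.Agent.P032.H396.Left

/-!
# P032: pure collars and strict sides of good pairs

`Left2 U T z a b t0` (H396/Left): near the directions `t0`, `t0 + π` the circle about `z` carries
all colours of `T z` but `a`, `b`.  If moreover `T (z + cis θ) = {a, b}`, then next to `z + cis θ`
one side of the circle about `z` has palette `{a}`, the other `{b}` (`Irr.collar201`), and all
points of `Pal U` near `z` with colour `a` are strictly on one side, those with colour `b`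
strictly on the other side of the line through `z` orthogonal to `cis θ` (`Irr.strict201`).
No hypothesis on the order of `z` or of its neighbours, no isolation.
-/

open Set Filter Topology Metric

noncomputable section

namespace Vale.Agent.P032.Six

variable {k : ℕ} {U : Fin k → Set ℂ} {T : ℂ → Set (Fin k)}

/-- next to `z + cis θ` the inside of the circle about `z` has palette `{a}`, the outside `{b}` -/
def Collar (T : ℂ → Set (Fin k)) (z : ℂ) (θ : ℝ) (a b : Fin k) : Prop :=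
  ∃ δ > 0, δ ≤ 1 ∧ (∀ ρ t : ℝ, 1 - δ < ρ → ρ < 1 → |t - θ| < δ → T (z + ρ * cis t) = {a}) ∧
    ∀ ρ t : ℝ, 1 < ρ → ρ < 1 + δ → |t - θ| < δ → T (z + ρ * cis t) = {b}

theorem dist_polar201 (z : ℂ) {ρ : ℝ} (hρ : 0 < ρ) (t : ℝ) : dist (z + (ρ : ℂ) * cis t) z = ρ := by
  rw [dist_eq_norm, add_sub_cancel_left, norm_mul, norm_cis, mul_one, Complex.norm_real,
    Real.norm_eq_abs, abs_of_pos hρ]

/-- on a preconnected set of polar coordinates on which each palette is one of `{a}`, `{b}` the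
palette is constant -/
theorem Irr.const201 (h : Irr U T) {z : ℂ} {a b : Fin k} {R : Set (ℝ × ℝ)}
    (hRc : IsPreconnected R)
    (hR : ∀ x ∈ R, T (z + (x.1 : ℂ) * cis x.2) = {a} ∨ T (z + (x.1 : ℂ) * cis x.2) = {b}) :
    (∀ x ∈ R, T (z + (x.1 : ℂ) * cis x.2) = {a}) ∨ ∀ x ∈ R, T (z + (x.1 : ℂ) * cis x.2) = {b} := by
  rcases eq_or_ne a b with hab | hab
  · left
    intro x hx
    rcases hR x hx with h1 | h1
    · exact h1
    · rw [hab]; exact h1
  have hf : Continuous fun x : ℝ × ℝ => z + (x.1 : ℂ) * cis x.2 :=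
    continuous_const.add ((Complex.continuous_ofReal.comp continuous_fst).mul
      (continuous_cis.comp continuous_snd))
  have hcl : ∀ i, IsClosed {x : ℝ × ℝ | i ∈ T (z + (x.1 : ℂ) * cis x.2)} := fun i =>
    (h.closed i).preimage hf
  have hcov : R ⊆ {x : ℝ × ℝ | a ∈ T (z + (x.1 : ℂ) * cis x.2)} ∪
      {x : ℝ × ℝ | b ∈ T (z + (x.1 : ℂ) * cis x.2)} := by
    intro x hx
    rcases hR x hx with h1 | h1
    · left; show a ∈ T _; rw [h1]; rfl
    · right; show b ∈ T _; rw [h1]; rfl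
  have hdis : R ∩ ({x : ℝ × ℝ | a ∈ T (z + (x.1 : ℂ) * cis x.2)} ∩
      {x : ℝ × ℝ | b ∈ T (z + (x.1 : ℂ) * cis x.2)}) = ∅ := by
    rw [Set.eq_empty_iff_forall_notMem]
    rintro x ⟨hx, h1, h2⟩
    have h1 : a ∈ T (z + (x.1 : ℂ) * cis x.2) := h1
    have h2 : b ∈ T (z + (x.1 : ℂ) * cis x.2) := h2
    rcases hR x hx with h3 | h3
    · rw [h3] at h2; exact hab (mem_singleton_iff.1 h2).symm
    · rw [h3] at h1; exact hab (mem_singleton_iff.1 h1)
  rcases isPreconnected_iff_subset_of_disjoint_closed.1 hRc _ _ (hcl a) (hcl b) hcov hdis with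
    h1 | h1
  · left
    intro x hx
    rcases hR x hx with h2 | h2
    · exact h2
    · exfalso
      have h3 : a ∈ T (z + (x.1 : ℂ) * cis x.2) := h1 hx
      rw [h2] at h3
      exact hab (mem_singleton_iff.1 h3)
  · right
    intro x hx
    rcases hR x hx with h2 | h2
    · exfalso
      have h3 : b ∈ T (z + (x.1 : ℂ) * cis x.2) := h1 hx
      rw [h2] at h3
      exact hab (mem_singleton_iff.1 h3).symm
    · exact h2

/-- **Pure collars.** -/
theorem Irr.collar201 (h : Irr U T) {z : ℂ} {a b : Fin k} (hab : a ≠ b) {t0 θ : ℝ}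
    (hL : Left2 U T z a b t0) (hT : T (z + cis θ) = {a, b}) :
    Collar T z θ a b ∨ Collar T z θ b a := by
  have hy0 : dist (z + cis θ) z = 1 := dist_add_cis z θ
  have hev : ∀ᶠ w in 𝓝 (z + cis θ), dist w z ≠ 1 → T w = {a} ∨ T w = {b} := by
    filter_upwards [h.left_near hL hy0, h.nhd (z + cis θ)] with w h1 h2 h3
    rw [hT] at h2
    have hc : (T w).ncard ≤ 3 :=
      (Set.ncard_le_ncard h2 (Set.toFinite _)).trans ((Set.ncard_insert_le _ _).trans (by
        rw [Set.ncard_singleton]; norm_num))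
    have h4 := (h1 h3).2.2 hc
    by_cases ha : a ∈ T w
    · left
      refine Subset.antisymm (fun i hi => ?_) (by rintro i rfl; exact ha)
      rcases h2 hi with h5 | h5
      · exact h5
      · rw [mem_singleton_iff] at h5
        subst h5
        exact absurd hi (h4 ha)
    · right
      obtain ⟨j, hj⟩ := h.ne w
      have hsub : T w ⊆ {b} := by
        intro i hi
        rcases h2 hi with h5 | h5
        · exact absurd (h5 ▸ hi) ha
        · exact h5
      refine Subset.antisymm hsub ?_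
      rintro i rfl
      have h6 := hsub hj
      rw [mem_singleton_iff] at h6
      exact h6 ▸ hj
  obtain ⟨N, hN, hNo, hyN⟩ := _root_.mem_nhds_iff.1 hev
  have hf : Continuous fun x : ℝ × ℝ => z + (x.1 : ℂ) * cis x.2 :=
    continuous_const.add ((Complex.continuous_ofReal.comp continuous_fst).mul
      (continuous_cis.comp continuous_snd))
  have hf0 : (fun x : ℝ × ℝ => z + (x.1 : ℂ) * cis x.2) (1, θ) = z + cis θ := by simp
  have h1 : ∀ᶠ x in 𝓝 ((1 : ℝ), θ), z + (x.1 : ℂ) * cis x.2 ∈ N := by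
    refine hf.continuousAt.preimage_mem_nhds ?_
    have h2 := hNo.mem_nhds hyN
    rw [← hf0] at h2
    exact h2
  obtain ⟨δ0, hδ0, hball⟩ := Metric.eventually_nhds_iff.1 h1
  set δ := min δ0 1 with hδ
  have hδ0' : 0 < δ := lt_min hδ0 one_pos
  have hδδ : δ ≤ δ0 := min_le_left _ _
  have hδ1 : δ ≤ 1 := min_le_right _ _
  have hin : ∀ ρ t : ℝ, |ρ - 1| < δ → |t - θ| < δ → ρ ≠ 1 →
      T (z + (ρ : ℂ) * cis t) = {a} ∨ T (z + (ρ : ℂ) * cis t) = {b} := by
    intro ρ t h2 h3 h4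
    have h5 : z + (ρ : ℂ) * cis t ∈ N := by
      refine hball (y := (ρ, t)) ?_
      rw [Prod.dist_eq]
      exact max_lt (by rw [Real.dist_eq]; exact lt_of_lt_of_le h2 hδδ)
        (by rw [Real.dist_eq]; exact lt_of_lt_of_le h3 hδδ)
    have h6 : 0 < ρ := by have := (abs_lt.1 h2).1; linarith
    exact hN h5 (by rw [dist_polar201 z h6]; exact h4)
  have hin1 : (∀ x ∈ Ioo (1 - δ) 1 ×ˢ Ioo (θ - δ) (θ + δ), T (z + (x.1 : ℂ) * cis x.2) = {a}) ∨
      ∀ x ∈ Ioo (1 - δ) 1 ×ˢ Ioo (θ - δ) (θ + δ), T (z + (x.1 : ℂ) * cis x.2) = {b} := by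
    refine h.const201 (isPreconnected_Ioo.prod isPreconnected_Ioo) fun x hx => hin x.1 x.2 ?_ ?_ ?_
    · rw [abs_lt]; exact ⟨by linarith [hx.1.1], by linarith [hx.1.2]⟩
    · rw [abs_lt]; exact ⟨by linarith [hx.2.1], by linarith [hx.2.2]⟩
    · exact ne_of_lt hx.1.2
  have hin2 : (∀ x ∈ Ioo 1 (1 + δ) ×ˢ Ioo (θ - δ) (θ + δ), T (z + (x.1 : ℂ) * cis x.2) = {a}) ∨
      ∀ x ∈ Ioo 1 (1 + δ) ×ˢ Ioo (θ - δ) (θ + δ), T (z + (x.1 : ℂ) * cis x.2) = {b} := by
    refine h.const201 (isPreconnected_Ioo.prod isPreconnected_Ioo) fun x hx => hin x.1 x.2 ?_ ?_ ?_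
    · rw [abs_lt]; exact ⟨by linarith [hx.1.1], by linarith [hx.1.2]⟩
    · rw [abs_lt]; exact ⟨by linarith [hx.2.1], by linarith [hx.2.2]⟩
    · exact ne_of_gt hx.1.1
  -- both colours accumulate off the circle
  have hacc : ∀ i, i ∈ T (z + cis θ) → ∃ ρ t : ℝ, |ρ - 1| < δ ∧ |t - θ| < δ ∧ ρ ≠ 1 ∧
      T (z + (ρ : ℂ) * cis t) = {i} := by
    intro i hi
    obtain ⟨g, ⟨hgV, ρ, t, hρ, ht, hg⟩, hgz⟩ := exists_off (z := z) isOpen_interior
      (h.pure_closure hi) (polar_near (z := z) (θ := θ) hδ0')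
    have hgV' : g ∈ {w | T w = {i}} := interior_subset hgV
    have h2 : T g = {i} := hgV'
    refine ⟨ρ, t, hρ, ht, fun h3 => hgz ?_, by rw [← hg]; exact h2⟩
    rw [hg, h3, Complex.ofReal_one, one_mul]
    exact dist_add_cis z t
  have hside : ∀ ρ t : ℝ, |ρ - 1| < δ → |t - θ| < δ → ρ ≠ 1 →
      ((ρ, t) : ℝ × ℝ) ∈ Ioo (1 - δ) 1 ×ˢ Ioo (θ - δ) (θ + δ) ∨
      ((ρ, t) : ℝ × ℝ) ∈ Ioo 1 (1 + δ) ×ˢ Ioo (θ - δ) (θ + δ) := by
    intro ρ t h2 h3 h4
    rw [abs_lt] at h2 h3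
    rcases lt_or_gt_of_ne h4 with h5 | h5
    · left
      exact ⟨⟨by simp only; linarith, h5⟩, ⟨by simp only; linarith, by simp only; linarith⟩⟩
    · right
      exact ⟨⟨h5, by simp only; linarith⟩, ⟨by simp only; linarith, by simp only; linarith⟩⟩
  have hne : ({a} : Set (Fin k)) ≠ {b} := fun h2 => hab (singleton_eq_singleton_iff.1 h2)
  have hmk : ∀ c d : Fin k,
      (∀ x ∈ Ioo (1 - δ) 1 ×ˢ Ioo (θ - δ) (θ + δ), T (z + (x.1 : ℂ) * cis x.2) = {c}) →
      (∀ x ∈ Ioo 1 (1 + δ) ×ˢ Ioo (θ - δ) (θ + δ), T (z + (x.1 : ℂ) * cis x.2) = {d}) →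
      Collar T z θ c d := by
    intro c d h2 h3
    refine ⟨δ, hδ0', hδ1, fun ρ t h4 h5 h6 => ?_, fun ρ t h4 h5 h6 => ?_⟩
    · rw [abs_lt] at h6
      exact h2 (ρ, t) ⟨⟨h4, h5⟩, ⟨by simp only; linarith, by simp only; linarith⟩⟩
    · rw [abs_lt] at h6
      exact h3 (ρ, t) ⟨⟨h4, h5⟩, ⟨by simp only; linarith, by simp only; linarith⟩⟩
  rcases hin1 with h2 | h2 <;> rcases hin2 with h3 | h3
  · exfalso
    obtain ⟨ρ, t, hρ, ht, hρ1, hT'⟩ := hacc b (by rw [hT]; simp)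
    rcases hside ρ t hρ ht hρ1 with h4 | h4
    · have h5 := h2 _ h4
      simp only at h5
      exact hne (h5.symm.trans hT')
    · have h5 := h3 _ h4
      simp only at h5
      exact hne (h5.symm.trans hT')
  · exact Or.inl (hmk a b h2 h3)
  · exact Or.inr (hmk b a h2 h3)
  · exfalso
    obtain ⟨ρ, t, hρ, ht, hρ1, hT'⟩ := hacc a (by rw [hT]; simp)
    rcases hside ρ t hρ ht hρ1 with h4 | h4
    · have h5 := h2 _ h4
      simp only at h5
      exact hne (hT'.symm.trans h5)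
    · have h5 := h3 _ h4
      simp only at h5
      exact hne (hT'.symm.trans h5)

/-- `ip` with a unit vector turned by `η` -/
theorem ip_cis_add201 (d : ℂ) (θ η : ℝ) :
    ip d (cis (θ + η)) = Real.cos η * ip d (cis θ) + Real.sin η * ip d (Complex.I * cis θ) := by
  unfold ip
  simp only [cis_re, cis_im, Complex.mul_re, Complex.mul_im, Complex.I_re, Complex.I_im,
    Real.cos_add, Real.sin_add]
  ring

theorem norm_sq_ip201 (d : ℂ) (θ : ℝ) :
    ‖d‖ ^ 2 = ip d (cis θ) ^ 2 + ip d (Complex.I * cis θ) ^ 2 := by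
  unfold ip
  rw [Complex.sq_norm, Complex.normSq_apply]
  simp only [cis_re, cis_im, Complex.mul_re, Complex.mul_im, Complex.I_re, Complex.I_im]
  have := Real.sin_sq_add_cos_sq θ
  linear_combination (-(d.re ^ 2 + d.im ^ 2)) * this

theorem dist_sq_cis201 (z w : ℂ) (t : ℝ) :
    dist (w + cis t) z ^ 2 = 1 + 2 * ip (w - z) (cis t) + ‖w - z‖ ^ 2 := by
  rw [dist_eq_norm, Complex.sq_norm, Complex.sq_norm, Complex.normSq_apply, Complex.normSq_apply]
  unfold ip
  simp only [Complex.sub_re, Complex.sub_im, Complex.add_re, Complex.add_im, cis_re, cis_im]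
  have := Real.sin_sq_add_cos_sq t
  linear_combination this

/-- an elementary inequality -/
theorem cone_ineq201 {c s X Y D : ℝ} (hs : 0 < s) (hsc : s < c) (hs1 : s ≤ 1 / 2) (hc1 : c ≤ 1)
    (hD0 : 0 ≤ D) (hD : D ≤ s) (hXY : D ^ 2 = X ^ 2 + Y ^ 2) (h1 : -(D ^ 2 / 2) ≤ c * X + s * Y)
    (h2 : -(D ^ 2 / 2) ≤ c * X - s * Y) : s / 4 * D ≤ X := by
  have hY : D ≤ |X| + |Y| := by
    have h3 : D ^ 2 ≤ (|X| + |Y|) ^ 2 := by
      have h4 := sq_abs X
      have h5 := sq_abs Y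
      nlinarith [abs_nonneg X, abs_nonneg Y, mul_nonneg (abs_nonneg X) (abs_nonneg Y)]
    exact abs_le_of_sq_le_sq' h3 (by positivity) |>.2
  have hY2 : -(D ^ 2 / 2) ≤ c * X - s * |Y| := by
    rcases abs_choice Y with h3 | h3 <;> rw [h3]
    · exact h2
    · linarith
  have hDD : D ^ 2 / 2 ≤ s * D / 2 := by nlinarith
  have h3 : s * D / 2 ≤ c * X + s * |X| := by nlinarith [mul_le_mul_of_nonneg_left hY hs.le]
  rcases le_or_gt 0 X with h4 | h4
  · rw [abs_of_nonneg h4] at h3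
    nlinarith
  · rw [abs_of_neg h4] at h3
    exfalso
    have h5 : 0 ≤ s * D / 2 := by positivity
    nlinarith

/-- **Strict sides.** -/
theorem Irr.strict201 (h : Irr U T) {z : ℂ} {θ : ℝ} {a b : Fin k} (hC : Collar T z θ a b) :
    ∃ ε > 0, ∀ᶠ w in 𝓝 z, (a ∈ Pal U w → ε * ‖w - z‖ ≤ ip (w - z) (cis θ)) ∧
      (b ∈ Pal U w → ε * ‖w - z‖ ≤ -ip (w - z) (cis θ)) := by
  obtain ⟨δ, hδ, hδ1, hin, hout⟩ := hC
  set η := δ / 2 with hη
  have hη0 : 0 < η := by positivity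
  have hη1 : η ≤ 1 / 2 := by rw [hη]; linarith
  have hs0 : 0 < Real.sin η := Real.sin_pos_of_pos_of_lt_pi hη0 (by linarith [Real.pi_gt_three])
  have hs1 : Real.sin η ≤ 1 / 2 := (Real.sin_le hη0.le).trans hη1
  have hc1 : Real.cos η ≤ 1 := Real.cos_le_one η
  have hc0 : 7 / 8 ≤ Real.cos η := by
    have := Real.one_sub_sq_div_two_le_cos (x := η)
    nlinarith
  have hD : ∀ᶠ w in 𝓝 z, ‖w - z‖ ≤ Real.sin η := by
    filter_upwards [Metric.closedBall_mem_nhds z hs0] with w hw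
    rwa [mem_closedBall, dist_eq_norm] at hw
  have hmove : ∀ t : ℝ, ∀ᶠ w in 𝓝 z, ∃ ρ s : ℝ, |ρ - 1| < η ∧ |s - t| < η ∧
      w + cis t = z + ρ * cis s := by
    intro t
    have hc : Tendsto (fun w : ℂ => w + cis t) (𝓝 z) (𝓝 (z + cis t)) :=
      (continuous_id.add continuous_const).tendsto z
    exact hc.eventually (polar_near (z := z) (θ := t) hη0)
  have hat : ∀ t : ℝ, |t - θ| ≤ η → ∀ᶠ w in 𝓝 z,
      (a ∈ Pal U w → -(‖w - z‖ ^ 2 / 2) ≤ ip (w - z) (cis t)) ∧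
      (b ∈ Pal U w → ip (w - z) (cis t) ≤ 0) := by
    intro t ht
    filter_upwards [hmove t] with w hw
    obtain ⟨ρ, s, hρ, hs, he⟩ := hw
    have hρ' := abs_lt.1 hρ
    have hsθ : |s - θ| < δ := by
      have := abs_sub_le s t θ
      linarith
    have hρ0 : 0 < ρ := by linarith
    have hd := dist_sq_cis201 z w t
    rw [he, dist_polar201 z hρ0] at hd
    have hw1 : dist (w + cis t) w = 1 := dist_add_cis w t
    refine ⟨fun ha => ?_, fun hb => ?_⟩
    · by_contra hcon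
      push Not at hcon
      have hρ1 : ρ < 1 := by
        by_contra h2
        push Not at h2
        nlinarith
      have h3 := hin ρ s (by linarith) hρ1 hsθ
      rw [← he] at h3
      exact h.mx.notMem' (h.mem_of_single h3.subset) hw1 ha
    · by_contra hcon
      push Not at hcon
      have hρ1 : 1 < ρ := by
        by_contra h2
        push Not at h2
        nlinarith [sq_nonneg ‖w - z‖]
      have h3 := hout ρ s hρ1 (by linarith) hsθ
      rw [← he] at h3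
      exact h.mx.notMem' (h.mem_of_single h3.subset) hw1 hb
  refine ⟨Real.sin η / 4, by positivity, ?_⟩
  filter_upwards [hD, hat (θ + η) (by rw [add_sub_cancel_left, abs_of_pos hη0]),
    hat (θ + -η) (by rw [add_sub_cancel_left, abs_neg, abs_of_pos hη0])] with w h1 h2 h3
  rw [ip_cis_add201] at h2 h3
  rw [Real.cos_neg, Real.sin_neg] at h3
  have hXY := norm_sq_ip201 (w - z) θ
  refine ⟨fun ha => ?_, fun hb => ?_⟩
  · refine cone_ineq201 (c := Real.cos η) (Y := ip (w - z) (Complex.I * cis θ)) hs0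
      (by linarith) hs1 hc1 (norm_nonneg _) h1 hXY ?_ ?_
    · linarith [h2.1 ha]
    · linarith [h3.1 ha]
  · refine cone_ineq201 (c := Real.cos η) (Y := ip (w - z) (Complex.I * cis θ)) hs0
      (by linarith) hs1 hc1 (norm_nonneg _) h1 (by rw [hXY]; ring) ?_ ?_
    · have := h3.2 hb
      nlinarith [sq_nonneg ‖w - z‖]
    · have := h2.2 hb
      nlinarith [sq_nonneg ‖w - z‖]

theorem ip_neg_right201 (x y : ℂ) : ip x (-y) = -ip x y := by
  unfold ip; simp; ring

/-- **Good pairs are honest.** If `a`, `b` are left over by an antipodal pair of arcs and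
`T q = {a, b}`, then near `z` all points with `a ∈ Pal` are strictly on one side, all points with
`b ∈ Pal` strictly on the other side of the line through `z` orthogonal to `q - z`. -/
theorem Irr.good201 (h : Irr U T) {z q : ℂ} {a b : Fin k} (hab : a ≠ b) {t0 : ℝ}
    (hL : Left2 U T z a b t0) (hq : dist q z = 1) (hT : T q = {a, b}) :
    ∃ σ : ℝ, (σ = 1 ∨ σ = -1) ∧ ∃ ε > 0, ∀ᶠ w in 𝓝 z,
      (a ∈ Pal U w → ε * ‖w - z‖ ≤ σ * ip (w - z) (q - z)) ∧
      (b ∈ Pal U w → ε * ‖w - z‖ ≤ -(σ * ip (w - z) (q - z))) := by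
  obtain ⟨θ, hθ⟩ := exists_cis (u := q - z) (by rw [← dist_eq_norm]; exact hq)
  have e : q = z + cis θ := by rw [← hθ]; ring
  rw [e] at hT
  rw [hθ]
  rcases h.collar201 hab hL hT with hC | hC
  · obtain ⟨ε, hε, hev⟩ := h.strict201 hC
    refine ⟨1, Or.inl rfl, ε, hε, ?_⟩
    filter_upwards [hev] with w hw
    rw [one_mul]
    exact hw
  · obtain ⟨ε, hε, hev⟩ := h.strict201 hC
    refine ⟨-1, Or.inr rfl, ε, hε, ?_⟩
    filter_upwards [hev] with w hw
    refine ⟨fun ha => ?_, fun hb => ?_⟩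
    · have := hw.2 ha
      linarith
    · have := hw.1 hb
      linarith

/-- no point near `z` has both colours of a good pair, not even in `Pal` -/
theorem Irr.good_pal201 (h : Irr U T) {z q : ℂ} {a b : Fin k} (hab : a ≠ b) {t0 : ℝ}
    (hL : Left2 U T z a b t0) (hq : dist q z = 1) (hT : T q = {a, b}) :
    ∀ᶠ w in 𝓝 z, a ∈ Pal U w → b ∈ Pal U w → w = z := by
  obtain ⟨σ, -, ε, hε, hev⟩ := h.good201 hab hL hq hT
  filter_upwards [hev] with w hw ha hb
  have h1 := hw.1 ha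
  have h2 := hw.2 hb
  have h3 : ε * ‖w - z‖ ≤ 0 := by linarith
  have h4 : ‖w - z‖ ≤ 0 := by
    by_contra hcon
    push Not at hcon
    nlinarith [mul_pos hε hcon]
  exact sub_eq_zero.1 (norm_le_zero_iff.1 h4)

/-- the left-over lemma, uniformly along the circle -/
theorem Irr.left_annulus201 (h : Irr U T) {z : ℂ} {p q : Fin k} {t0 : ℝ}
    (hL : Left2 U T z p q t0) : ∃ ε > 0, ∀ w, dist w z ≠ 1 → |dist w z - 1| < ε →
      (w ∈ U p → q ∉ T w) ∧ (w ∈ U q → p ∉ T w) ∧ ((T w).ncard ≤ 3 → p ∈ T w → q ∉ T w) := by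
  have h1 : ∀ᶠ w in 𝓝ˢ (sphere z 1), dist w z ≠ 1 →
      (w ∈ U p → q ∉ T w) ∧ (w ∈ U q → p ∉ T w) ∧ ((T w).ncard ≤ 3 → p ∈ T w → q ∉ T w) := by
    rw [eventually_nhdsSet_iff_forall]
    exact fun y hy => h.left_near hL hy
  obtain ⟨V, hVo, hV, hVs⟩ := eventually_nhdsSet_iff_exists.1 h1
  obtain ⟨ε, hε, hsub⟩ := (isCompact_sphere z (1 : ℝ)).exists_thickening_subset_open hVo hV
  refine ⟨ε, hε, fun w hw1 hw2 => hVs w (hsub ?_) hw1⟩
  rw [mem_thickening_iff]
  rcases eq_or_ne w z with rfl | hwz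
  · rw [dist_self] at hw2
    refine ⟨w + 1, by simp, ?_⟩
    have : |(0 : ℝ) - 1| = 1 := by norm_num
    rw [this] at hw2
    rw [dist_self_add_right, norm_one]
    exact hw2
  · have hn : 0 < ‖w - z‖ := norm_pos_iff.2 (sub_ne_zero.2 hwz)
    refine ⟨z + ((‖w - z‖⁻¹ : ℝ) : ℂ) * (w - z), ?_, ?_⟩
    · rw [mem_sphere, dist_eq_norm, add_sub_cancel_left, norm_mul, Complex.norm_real,
        Real.norm_eq_abs, abs_of_pos (inv_pos.2 hn), inv_mul_cancel₀ hn.ne']
    · have e : w - (z + ((‖w - z‖⁻¹ : ℝ) : ℂ) * (w - z)) =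
          ((1 - ‖w - z‖⁻¹ : ℝ) : ℂ) * (w - z) := by push_cast; ring
      rw [dist_eq_norm, e, norm_mul, Complex.norm_real, Real.norm_eq_abs, ← abs_of_pos hn,
        ← abs_mul, abs_of_pos hn, sub_mul, one_mul, inv_mul_cancel₀ hn.ne', ← dist_eq_norm]
      exact hw2

/-- a collar gives an exact arc -/
theorem Irr.arc_of_collar201 (h : Irr U T) {z : ℂ} {θ : ℝ} {a b : Fin k}
    (hC : Collar T z θ a b) : ∃ δ > 0, ∀ t : ℝ, |t - θ| < δ → a ∈ T (z + cis t) ∧
      b ∈ T (z + cis t) := by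
  obtain ⟨δ, hδ, -, hin, hout⟩ := hC
  refine ⟨δ, hδ, fun t ht => ⟨?_, ?_⟩⟩
  · have hcl : IsClosed {ρ : ℝ | a ∈ T (z + (ρ : ℂ) * cis t)} := by
      have hc : Continuous fun ρ : ℝ => z + (ρ : ℂ) * cis t := by fun_prop
      exact (h.closed a).preimage hc
    have h1 : (1 : ℝ) ∈ closure (Ioo (1 - δ) 1) := by
      rw [closure_Ioo (by linarith)]; exact ⟨by linarith, le_rfl⟩
    have h2 := hcl.closure_subset_iff.2 (fun ρ hρ => by
      show a ∈ T _
      rw [hin ρ t hρ.1 hρ.2 ht]; rfl) h1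
    have h3 : a ∈ T (z + ((1 : ℝ) : ℂ) * cis t) := h2
    rwa [Complex.ofReal_one, one_mul] at h3
  · have hcl : IsClosed {ρ : ℝ | b ∈ T (z + (ρ : ℂ) * cis t)} := by
      have hc : Continuous fun ρ : ℝ => z + (ρ : ℂ) * cis t := by fun_prop
      exact (h.closed b).preimage hc
    have h1 : (1 : ℝ) ∈ closure (Ioo 1 (1 + δ)) := by
      rw [closure_Ioo (by linarith)]; exact ⟨le_rfl, by linarith⟩
    have h2 := hcl.closure_subset_iff.2 (fun ρ hρ => by
      show b ∈ T _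
      rw [hout ρ t hρ.1 hρ.2 ht]; rfl) h1
    have h3 : b ∈ T (z + ((1 : ℝ) : ℂ) * cis t) := h2
    rwa [Complex.ofReal_one, one_mul] at h3

end Vale.Agent.P032.Six
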