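import Vale.Agent.P032.S5.H80.Ray

/-!
# P032: the cusp rule, closed form

Centre `z`, direction `θ`, `p = ip (cis θ) (x - z)`, `s = ip (I * cis θ) (x - z)`.  `S(x)`, `x` near
`z` in a thin cone about the line orthogonal to `cis θ`, meets `S(z)` near `z + cis θ`; on which
side of `z + cis θ` is decided by the sign of `s` and by `dist x (z + cis θ) < 1` or `> 1`
(`see_out201`, `see_in201`: both time orders `σ = ± 1`).

`cusp201`: in the cusp outside both discs of radius one about `z + cis θ` and `z - cis θ`, on the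
side `0 < s`, no colour which is present just AFTER `θ` at `z + cis t` and no colour which is
present just BEFORE `θ` at `z - cis t`.  `cusp_sub201`: palettes.  No hypothesis on the orders.
-/

open Set Filter Topology Metric

noncomputable section

namespace Vale.Agent.P032.Six

variable {k : ℕ} {U : Fin k → Set ℂ} {T : ℂ → Set (Fin k)}

theorem sq_cis201 (z x : ℂ) (t : ℝ) :
    dist (z + cis t) x ^ 2 = 1 - 2 * ip (cis t) (x - z) +
      (ip (cis t) (x - z) ^ 2 + ip (Complex.I * cis t) (x - z) ^ 2) := by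
  rw [sq_dist]
  simp only [ip, Complex.add_re, Complex.add_im, Complex.sub_re, Complex.sub_im, Complex.mul_re,
    Complex.mul_im, Complex.I_re, Complex.I_im, cis_re, cis_im]
  have h := Real.sin_sq_add_cos_sq t
  set A := x.re - z.re
  set B := x.im - z.im
  have e1 : z.re + Real.cos t - x.re = Real.cos t - A := by simp only [A]; ring
  have e2 : z.im + Real.sin t - x.im = Real.sin t - B := by simp only [B]; ring
  rw [e1, e2]
  linear_combination (1 - A ^ 2 - B ^ 2) * h

theorem ip_rot201 (θ u : ℝ) (n : ℂ) :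
    ip (cis (θ + u)) n = Real.cos u * ip (cis θ) n + Real.sin u * ip (Complex.I * cis θ) n := by
  simp only [ip, Complex.mul_re, Complex.mul_im, Complex.I_re, Complex.I_im, cis_re, cis_im,
    Real.cos_add, Real.sin_add]
  ring

theorem ip_norm201 (t : ℝ) (n : ℂ) :
    ip (cis t) n ^ 2 + ip (Complex.I * cis t) n ^ 2 = n.re ^ 2 + n.im ^ 2 := by
  simp only [ip, Complex.mul_re, Complex.mul_im, Complex.I_re, Complex.I_im, cis_re, cis_im]
  have h := Real.sin_sq_add_cos_sq t
  linear_combination (n.re ^ 2 + n.im ^ 2) * h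

theorem tendsto_ip201 (z c : ℂ) : Tendsto (fun x => ip c (x - z)) (𝓝 z) (𝓝 0) := by
  have h : Continuous fun x : ℂ => ip c (x - z) := by unfold ip; fun_prop
  have h1 := h.tendsto z
  simpa [ip] using h1

/-- `S(x)` meets `S(z)` at `z + cis (θ + σ u)`, `0 < u < η`, if `x` is near `z`, outside the disc
about `z + cis θ`, on the side `0 < σ s`, in a cone -/
theorem Mx.see_out201 (h : Mx U) {z : ℂ} {θ η : ℝ} (hη : 0 < η) {σ : ℝ} (hσ : σ = 1 ∨ σ = -1) :
    ∃ c > 0, ∀ᶠ x in 𝓝 z, 0 < σ * ip (Complex.I * cis θ) (x - z) →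
      -(c * (σ * ip (Complex.I * cis θ) (x - z))) ≤ ip (cis θ) (x - z) →
      1 < dist x (z + cis θ) →
      ∀ i : Fin k, (∀ u : ℝ, 0 < u → u < η → i ∈ Pal U (z + cis (θ + σ * u))) → i ∉ Pal U x := by
  set e := min (η / 2) 1 with he
  have he0 : 0 < e := by positivity
  have he1 : e ≤ 1 := min_le_right _ _
  have heη : e < η := lt_of_le_of_lt (min_le_left _ _) (by linarith)
  have hsin : 0 < Real.sin e := Real.sin_pos_of_pos_of_lt_pi he0 (by linarith [Real.pi_gt_three])
  have hcos : 0 < Real.cos e := Real.cos_pos_of_mem_Ioo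
    ⟨by linarith [Real.pi_gt_three], by linarith [Real.pi_gt_three]⟩
  have hcos1 : Real.cos e ≤ 1 := Real.cos_le_one _
  have hsin1 : Real.sin e ≤ 1 := Real.sin_le_one _
  refine ⟨Real.sin e / 2, by positivity, ?_⟩
  have hs := (tendsto_ip201 z (Complex.I * cis θ)).eventually
    (Ioo_mem_nhds (show -(Real.sin e / 2) < 0 by linarith) (show 0 < Real.sin e / 2 by linarith))
  have hp := (tendsto_ip201 z (cis θ)).eventually
    (Ioo_mem_nhds (show -Real.cos e < 0 by linarith) (show 0 < Real.cos e by linarith))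
  filter_upwards [hs, hp] with x hs hp h1 h2 h3 i hi
  set s := ip (Complex.I * cis θ) (x - z) with hsdef
  set p := ip (cis θ) (x - z) with hpdef
  -- the far end
  have hfar : dist (z + cis (θ + σ * e)) x < 1 := by
    have h4 := sq_cis201 z x (θ + σ * e)
    rw [ip_norm201, ← ip_norm201 θ, ip_rot201, ← hsdef, ← hpdef] at h4
    have hsσ : Real.sin (σ * e) * s = Real.sin e * (σ * s) := by
      rcases hσ with rfl | rfl
      · simp
      · simp [Real.sin_neg]
    have hcσ : Real.cos (σ * e) = Real.cos e := by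
      rcases hσ with rfl | rfl
      · simp
      · simp [Real.cos_neg]
    rw [hsσ, hcσ] at h4
    have hs2 : s ^ 2 = (σ * s) ^ 2 := by rcases hσ with rfl | rfl <;> ring
    rw [hs2] at h4
    have hsabs : σ * s < Real.sin e / 2 := by
      rcases hσ with rfl | rfl <;> [skip; skip] <;> nlinarith [hs.1, hs.2]
    set S := σ * s with hS
    have key : p ^ 2 + S ^ 2 < 2 * (Real.cos e * p + Real.sin e * S) := by
      rcases le_or_gt 0 p with hp0 | hp0
      · nlinarith [mul_nonneg hp0 (sub_nonneg.2 hp.2.le), mul_pos h1 (sub_pos.2 hsabs), mul_pos h1 hsin]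
      · have h5 : p ^ 2 ≤ S ^ 2 := by
          have h6 : -p ≤ Real.sin e / 2 * S := by linarith
          have h7 : Real.sin e / 2 * S ≤ S := by nlinarith
          nlinarith
        have h8 : -(Real.sin e / 2 * S) ≤ Real.cos e * p := by nlinarith
        nlinarith [mul_pos h1 (sub_pos.2 hsabs), mul_pos h1 hsin]
    have h9 := dist_nonneg (x := z + cis (θ + σ * e)) (y := x)
    nlinarith
  -- the near end
  have hnear : ∃ u : ℝ, 0 < u ∧ u < e ∧ 1 < dist (z + cis (θ + σ * u)) x := by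
    have hc : Continuous fun u : ℝ => dist (z + cis (θ + σ * u)) x :=
      (continuous_const.add (continuous_cis.comp (by fun_prop))).dist continuous_const
    have h4 : ∀ᶠ u in 𝓝 (0 : ℝ), 1 < dist (z + cis (θ + σ * u)) x := by
      refine hc.continuousAt.eventually (Ioi_mem_nhds ?_)
      simpa [dist_comm] using h3
    have h5 : ∀ᶠ u in 𝓝[>] (0 : ℝ), 1 < dist (z + cis (θ + σ * u)) x ∧ 0 < u ∧ u < e := by
      filter_upwards [mem_nhdsWithin_of_mem_nhds h4, self_mem_nhdsWithin,
        mem_nhdsWithin_of_mem_nhds (Iio_mem_nhds he0)] with u h6 h7 h8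
      exact ⟨h6, h7, h8⟩
    obtain ⟨u, h6, h7, h8⟩ := h5.exists
    exact ⟨u, h7, h8, h6⟩
  obtain ⟨u, hu0, hue, hu⟩ := hnear
  refine h.swept (z := z) (t1 := θ + σ * e) (t2 := θ + σ * u) (fun t ht => ?_) hfar hu
  obtain ⟨v, hv, rfl⟩ : ∃ v : ℝ, v ∈ Icc u e ∧ θ + σ * v = t := by
    rcases hσ with rfl | rfl
    · refine ⟨t - θ, ?_, by ring⟩
      rw [uIcc_of_ge (by linarith)] at ht
      exact ⟨by linarith [ht.1], by linarith [ht.2]⟩
    · refine ⟨θ - t, ?_, by ring⟩
      rw [uIcc_of_le (by linarith)] at ht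
      exact ⟨by linarith [ht.2], by linarith [ht.1]⟩
  exact hi v (by linarith [hv.1]) (by linarith [hv.2])

/-- `S(x)` meets `S(z)` at `z + cis (θ + σ u)`, `0 < u < η`, if `x` is near `z`, inside the disc
about `z + cis θ`, on the side `σ s < 0`, in a cone -/
theorem Mx.see_in201 (h : Mx U) {z : ℂ} {θ η : ℝ} (hη : 0 < η) {σ : ℝ} (hσ : σ = 1 ∨ σ = -1) :
    ∃ c > 0, ∀ᶠ x in 𝓝 z, σ * ip (Complex.I * cis θ) (x - z) < 0 →
      ip (cis θ) (x - z) ≤ -(c * (σ * ip (Complex.I * cis θ) (x - z))) →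
      dist x (z + cis θ) < 1 →
      ∀ i : Fin k, (∀ u : ℝ, 0 < u → u < η → i ∈ Pal U (z + cis (θ + σ * u))) → i ∉ Pal U x := by
  set e := min (η / 2) 1 with he
  have he0 : 0 < e := by positivity
  have he1 : e ≤ 1 := min_le_right _ _
  have heη : e < η := lt_of_le_of_lt (min_le_left _ _) (by linarith)
  have hsin : 0 < Real.sin e := Real.sin_pos_of_pos_of_lt_pi he0 (by linarith [Real.pi_gt_three])
  have hcos : 0 < Real.cos e := Real.cos_pos_of_mem_Ioo
    ⟨by linarith [Real.pi_gt_three], by linarith [Real.pi_gt_three]⟩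
  have hcos1 : Real.cos e ≤ 1 := Real.cos_le_one _
  refine ⟨Real.sin e / 2, by positivity, Eventually.of_forall fun x h1 h2 h3 i hi => ?_⟩
  set s := ip (Complex.I * cis θ) (x - z) with hsdef
  set p := ip (cis θ) (x - z) with hpdef
  have hfar : 1 < dist (z + cis (θ + σ * e)) x := by
    have h4 := sq_cis201 z x (θ + σ * e)
    rw [ip_norm201, ← ip_norm201 θ, ip_rot201, ← hsdef, ← hpdef] at h4
    have hsσ : Real.sin (σ * e) * s = Real.sin e * (σ * s) := by
      rcases hσ with rfl | rfl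
      · simp
      · simp [Real.sin_neg]
    have hcσ : Real.cos (σ * e) = Real.cos e := by
      rcases hσ with rfl | rfl
      · simp
      · simp [Real.cos_neg]
    rw [hsσ, hcσ] at h4
    have hs2 : s ^ 2 = (σ * s) ^ 2 := by rcases hσ with rfl | rfl <;> ring
    rw [hs2] at h4
    set S := σ * s with hS
    have h5 : Real.cos e * p + Real.sin e * S < 0 := by
      rcases le_or_gt 0 p with hp0 | hp0
      · nlinarith
      · nlinarith
    have h9 := dist_nonneg (x := z + cis (θ + σ * e)) (y := x)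
    nlinarith [sq_nonneg p, sq_nonneg S]
  have hnear : ∃ u : ℝ, 0 < u ∧ u < e ∧ dist (z + cis (θ + σ * u)) x < 1 := by
    have hc : Continuous fun u : ℝ => dist (z + cis (θ + σ * u)) x :=
      (continuous_const.add (continuous_cis.comp (by fun_prop))).dist continuous_const
    have h4 : ∀ᶠ u in 𝓝 (0 : ℝ), dist (z + cis (θ + σ * u)) x < 1 := by
      refine hc.continuousAt.eventually (Iio_mem_nhds ?_)
      simpa [dist_comm] using h3
    have h5 : ∀ᶠ u in 𝓝[>] (0 : ℝ), dist (z + cis (θ + σ * u)) x < 1 ∧ 0 < u ∧ u < e := by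
      filter_upwards [mem_nhdsWithin_of_mem_nhds h4, self_mem_nhdsWithin,
        mem_nhdsWithin_of_mem_nhds (Iio_mem_nhds he0)] with u h6 h7 h8
      exact ⟨h6, h7, h8⟩
    obtain ⟨u, h6, h7, h8⟩ := h5.exists
    exact ⟨u, h7, h8, h6⟩
  obtain ⟨u, hu0, hue, hu⟩ := hnear
  refine h.swept (z := z) (t1 := θ + σ * u) (t2 := θ + σ * e) (fun t ht => ?_) hu hfar
  obtain ⟨v, hv, rfl⟩ : ∃ v : ℝ, v ∈ Icc u e ∧ θ + σ * v = t := by
    rcases hσ with rfl | rfl
    · refine ⟨t - θ, ?_, by ring⟩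
      rw [uIcc_of_le (by linarith)] at ht
      exact ⟨by linarith [ht.1], by linarith [ht.2]⟩
    · refine ⟨θ - t, ?_, by ring⟩
      rw [uIcc_of_ge (by linarith)] at ht
      exact ⟨by linarith [ht.2], by linarith [ht.1]⟩
  exact hi v (by linarith [hv.1]) (by linarith [hv.2])

theorem cis_pi201 (θ u : ℝ) : cis (θ + Real.pi + u) = -cis (θ + u) := by
  unfold cis
  push_cast
  rw [show ((θ : ℂ) + Real.pi + u) * Complex.I = (θ + u) * Complex.I + Real.pi * Complex.I by ring,
    Complex.exp_add, Complex.exp_pi_mul_I]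
  ring

/-- **the cusp rule**, closed form: in the cusp outside both discs, on the side `0 < s`, there is
no colour which is present just after `θ` at `z + cis t` or just before `θ` at `z - cis t` -/
theorem Mx.cusp201 (h : Mx U) {z : ℂ} {θ η : ℝ} (hη : 0 < η) :
    ∀ᶠ x in 𝓝 z, 0 < ip (Complex.I * cis θ) (x - z) → 1 < dist x (z + cis θ) →
      1 < dist x (z - cis θ) →
      (∀ i : Fin k, (∀ t : ℝ, θ < t → t < θ + η → i ∈ Pal U (z + cis t)) → i ∉ Pal U x) ∧
      ∀ i : Fin k, (∀ t : ℝ, θ - η < t → t < θ → i ∈ Pal U (z - cis t)) → i ∉ Pal U x := by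
  obtain ⟨c1, hc1, h1⟩ := h.see_out201 (z := z) (θ := θ) hη (σ := 1) (Or.inl rfl)
  obtain ⟨c2, hc2, h2⟩ := h.see_out201 (z := z) (θ := θ + Real.pi) hη (σ := -1) (Or.inr rfl)
  have hc : 0 < min (min c1 c2) 1 := lt_min (lt_min hc1 hc2) one_pos
  have hs := (tendsto_ip201 z (Complex.I * cis θ)).eventually
    (Iio_mem_nhds (show 0 < min (min c1 c2) 1 / 2 by linarith))
  have hp := (tendsto_ip201 z (cis θ)).eventually
    (Ioo_mem_nhds (show (-1 / 2 : ℝ) < 0 by norm_num) (show (0 : ℝ) < 1 / 2 by norm_num))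
  filter_upwards [h1, h2, hs, hp] with x h1 h2 hs hp h3 h4 h5
  have eπ := cis_pi201 θ 0
  rw [add_zero, add_zero] at eπ
  set s := ip (Complex.I * cis θ) (x - z) with hsdef
  set p := ip (cis θ) (x - z) with hpdef
  have e1 : ip (Complex.I * cis (θ + Real.pi)) (x - z) = -s := by
    rw [eπ, hsdef]; simp only [ip, mul_neg, Complex.neg_re, Complex.neg_im]; ring
  have e2 : ip (cis (θ + Real.pi)) (x - z) = -p := by
    rw [eπ, hpdef]; simp only [ip, Complex.neg_re, Complex.neg_im]; ring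
  -- both discs
  have d1 : 2 * p < p ^ 2 + s ^ 2 := by
    have h6 := sq_cis201 z x θ
    rw [← hsdef, ← hpdef, dist_comm] at h6
    nlinarith
  have d2 : -(2 * p) < p ^ 2 + s ^ 2 := by
    have h6 := sq_cis201 z x (θ + Real.pi)
    rw [e1, e2, eπ, dist_comm, ← sub_eq_add_neg] at h6
    nlinarith
  have hc1' : min (min c1 c2) 1 ≤ c1 := (min_le_left _ _).trans (min_le_left _ _)
  have hc2' : min (min c1 c2) 1 ≤ c2 := (min_le_left _ _).trans (min_le_right _ _)
  have hcc : min (min c1 c2) 1 ≤ 1 := min_le_right _ _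
  set c := min (min c1 c2) 1
  have b1 : p ≤ c * s := by
    rcases le_or_gt p 0 with h6 | h6
    · nlinarith
    · nlinarith [mul_pos h6 (sub_pos.2 hp.2)]
  have b2 : -p ≤ c * s := by
    rcases le_or_gt 0 p with h6 | h6
    · nlinarith
    · nlinarith [mul_pos (neg_pos.2 h6) (show 0 < p + 1 / 2 by linarith [hp.1])]
  refine ⟨fun i hi => h1 (by linarith) (by nlinarith) h4 i fun u hu0 huη => ?_,
    fun i hi => h2 (by rw [e1]; linarith) (by rw [e1, e2]; nlinarith)
      (by rw [eπ, ← sub_eq_add_neg]; exact h5) i fun u hu0 huη => ?_⟩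
  · rw [one_mul]
    exact hi _ (by linarith) (by linarith)
  · rw [cis_pi201, ← sub_eq_add_neg]
    exact hi _ (by linarith) (by linarith)

/-- **the cusp rule** for palettes: letters `P` after `θ`, `Q` before `θ` at the antipode -/
theorem Irr.cusp_sub201 (h : Irr U T) {z : ℂ} {θ η : ℝ} (hη : 0 < η) {P Q : Set (Fin k)}
    (hP : ∀ t : ℝ, θ < t → t < θ + η → P ⊆ T (z + cis t))
    (hQ : ∀ t : ℝ, θ - η < t → t < θ → Q ⊆ T (z - cis t)) :
    ∀ᶠ x in 𝓝 z, 0 < ip (Complex.I * cis θ) (x - z) → 1 < dist x (z + cis θ) →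
      1 < dist x (z - cis θ) → T x ⊆ T z \ (P ∪ Q) := by
  filter_upwards [h.mx.cusp201 (z := z) (θ := θ) hη, h.nhd z] with x h1 h2 h3 h4 h5 i hi
  obtain ⟨h6, h7⟩ := h1 h3 h4 h5
  refine ⟨h2 hi, fun h8 => ?_⟩
  rcases h8 with h8 | h8
  · exact h6 i (fun t ht1 ht2 => h.sub _ (hP t ht1 ht2 h8)) (h.sub _ hi)
  · exact h7 i (fun t ht1 ht2 => h.sub _ (hQ t ht1 ht2 h8)) (h.sub _ hi)

/-- the same on the other side: letters `P` BEFORE `θ`, `Q` AFTER `θ` at the antipode -/
theorem Irr.cusp_sub_neg201 (h : Irr U T) {z : ℂ} {θ η : ℝ} (hη : 0 < η) {P Q : Set (Fin k)}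
    (hP : ∀ t : ℝ, θ - η < t → t < θ → P ⊆ T (z + cis t))
    (hQ : ∀ t : ℝ, θ < t → t < θ + η → Q ⊆ T (z - cis t)) :
    ∀ᶠ x in 𝓝 z, ip (Complex.I * cis θ) (x - z) < 0 → 1 < dist x (z + cis θ) →
      1 < dist x (z - cis θ) → T x ⊆ T z \ (P ∪ Q) := by
  have eπ := cis_pi201 θ 0
  rw [add_zero, add_zero] at eπ
  have key : ∀ t : ℝ, cis (t + Real.pi) = -cis t := fun t => by
    have := cis_pi201 t 0
    rwa [add_zero, add_zero] at this
  have h0 := h.cusp_sub201 (z := z) (θ := θ + Real.pi) (P := Q) (Q := P) hη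
    (fun t h1 h2 => by
      have := hQ (t - Real.pi) (by linarith) (by linarith)
      rw [show t = t - Real.pi + Real.pi by ring, key, ← sub_eq_add_neg]
      exact this)
    (fun t h1 h2 => by
      have := hP (t - Real.pi) (by linarith) (by linarith)
      rw [show t = t - Real.pi + Real.pi by ring, key, sub_neg_eq_add]
      exact this)
  filter_upwards [h0] with x h0 h1 h2 h3
  rw [union_comm]
  refine h0 ?_ ?_ ?_
  · rw [eπ]
    simp only [ip, mul_neg, Complex.neg_re, Complex.neg_im] at h1 ⊢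
    linarith
  · rw [eπ, ← sub_eq_add_neg]; exact h3
  · rw [eπ, sub_neg_eq_add]; exact h2

end Vale.Agent.P032.Six
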